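import Vale.Agent.Lib.P126G.Main

open scoped Pointwise

namespace Vale.Agent.Results.P126.A_dimfree

open Vale.Agent.Lib.P126G Vale.Agent.Lib.P126U in
/-- Dimension-free duality of metric entropy for all origin-symmetric convex bodies, with losses
polylogarithmic in the entropy `q` itself: with `l = log (q+2)`, a bound `e^q` on one covering
number at scale `8192 l` gives the bound `4*10^7 l^2 q` on the logarithm of the dual one. -/
theorem result (n : ℕ) (K L : Set (Fin n → ℝ)) (hK : SymBody K) (hL : SymBody L) (q : ℝ)
    (hq : 1 ≤ q) :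
    ((covNum (polar L) ((8192 * Real.log (q + 2))⁻¹ • polar K) : ℝ) ≤ Real.exp q →
      Real.log (covNum K L) ≤ 40000000 * Real.log (q + 2) ^ 2 * q) ∧
    ((covNum K L : ℝ) ≤ Real.exp q →
      Real.log (covNum (polar L) ((8192 * Real.log (q + 2)) • polar K)) ≤
        40000000 * Real.log (q + 2) ^ 2 * q) :=
  ⟨fun h => duality_general hK hL hq h, fun h => duality_general_dual hK hL hq h⟩

end Vale.Agent.Results.P126.A_dimfree
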