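import Vale.Agent.Lib.P126G.MainT

open scoped Pointwise

namespace Vale.Agent.Results.P126.A_tradeoff

open Vale.Agent.Lib.P126G Vale.Agent.Lib.P126U in
/-- Duality of metric entropy for all origin-symmetric convex bodies, as a trade-off between the
scale and the power: for every integer `s ≥ 1` and real `q ≥ 1`, a bound `e^q` on one covering
number at scale `4096 s` gives the bound `6*10^7 s log(s+1) q^(1+1/s)` on the logarithm of the
dual one. -/
theorem result (n : ℕ) (K L : Set (Fin n → ℝ)) (hK : SymBody K) (hL : SymBody L) (s : ℕ)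
    (hs : 1 ≤ s) (q : ℝ) (hq : 1 ≤ q) :
    ((covNum (polar L) ((4096 * (s : ℝ))⁻¹ • polar K) : ℝ) ≤ Real.exp q →
      Real.log (covNum K L) ≤
        60000000 * (s : ℝ) * Real.log ((s : ℝ) + 1) * q ^ (1 + 1 / (s : ℝ))) ∧
    ((covNum K L : ℝ) ≤ Real.exp q →
      Real.log (covNum (polar L) ((4096 * (s : ℝ)) • polar K)) ≤
        60000000 * (s : ℝ) * Real.log ((s : ℝ) + 1) * q ^ (1 + 1 / (s : ℝ))) :=
  ⟨fun h => duality_tradeoff hK hL hs hq h, fun h => duality_tradeoff_dual hK hL hs hq h⟩

end Vale.Agent.Results.P126.A_tradeoff
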