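import Vale.Agent.Lib.P126U.Final

open scoped Pointwise

namespace Vale.Agent.Results.P126.A_unconditional

open Vale.Agent.Lib.P126U in
/-- Duality of metric entropy for pairs of 1-unconditional convex bodies, with the absolute
constants `a = 128` and `b = 500`, in every dimension. -/
theorem result (n : ℕ) (K L : Set (Fin n → ℝ)) (hK : UBody K) (hL : UBody L) :
    (1 / 500 : ℝ) * Real.log (covNum (polar L) ((128 : ℝ) • polar K)) ≤ Real.log (covNum K L) ∧
      Real.log (covNum K L) ≤ 500 * Real.log (covNum (polar L) ((128 : ℝ)⁻¹ • polar K)) :=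
  duality hK hL

end Vale.Agent.Results.P126.A_unconditional
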